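import Crest.Agent.Lib.Bc.Orbit.O36C150
/-! Row 163: the means of `a` and `a²` along the grid orbit at `b = 4`, `λ = -1/2`. -/
set_option maxRecDepth 1000000
namespace Crest.Agent.Lib.Bc.GridO.O36

/-- level 120: the mean of `a` -/
theorem a120 : (leafSL 3 4 (-(1 / 2)) 120 (by norm_num) hch3).Φ (aFn 3) ≤ 97 / 625 := by
  have h := inv120.a_le
  have hb : sumW (numA 36) (ptsOf 36 13 ks) w120 ≤ 107985785742 := by decide +kernel
  have hb' : ((sumW (numA 36) (ptsOf 36 13 ks) w120 : ℕ) : ℝ) ≤ ((107985785742 : ℕ) : ℝ) := by exact_mod_cast hb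
  have h2 := h.trans hb'
  norm_num at h2 ⊢
  linarith

/-- level 120: the mean of `a²` -/
theorem r120 : (leafSL 3 4 (-(1 / 2)) 120 (by norm_num) hch3).Φ (fun x => aFn 3 x ^ 2) ≤ 93 / 2500 := by
  have h := inv120.a2_le
  have hb : sumW (fun p => numA 36 p * numA 36 p) (ptsOf 36 13 ks) w120 ≤ 67089230845496 := by decide +kernel
  have hb' : ((sumW (fun p => numA 36 p * numA 36 p) (ptsOf 36 13 ks) w120 : ℕ) : ℝ) ≤ ((67089230845496 : ℕ) : ℝ) := by exact_mod_cast hb
  have h2 := h.trans hb'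
  norm_num at h2 ⊢
  linarith

/-- level 150: the mean of `a` -/
theorem a150 : (leafSL 3 4 (-(1 / 2)) 150 (by norm_num) hch3).Φ (aFn 3) ≤ 253 / 2500 := by
  have h := inv150.a_le
  have hb : sumW (numA 36) (ptsOf 36 13 ks) w150 ≤ 70413411837 := by decide +kernel
  have hb' : ((sumW (numA 36) (ptsOf 36 13 ks) w150 : ℕ) : ℝ) ≤ ((70413411837 : ℕ) : ℝ) := by exact_mod_cast hb
  have h2 := h.trans hb'
  norm_num at h2 ⊢
  linarith

/-- level 150: the mean of `a²` -/
theorem r150 : (leafSL 3 4 (-(1 / 2)) 150 (by norm_num) hch3).Φ (fun x => aFn 3 x ^ 2) ≤ 169 / 10000 := by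
  have h := inv150.a2_le
  have hb : sumW (fun p => numA 36 p * numA 36 p) (ptsOf 36 13 ks) w150 ≤ 30478709712066 := by decide +kernel
  have hb' : ((sumW (fun p => numA 36 p * numA 36 p) (ptsOf 36 13 ks) w150 : ℕ) : ℝ) ≤ ((30478709712066 : ℕ) : ℝ) := by exact_mod_cast hb
  have h2 := h.trans hb'
  norm_num at h2 ⊢
  linarith

end Crest.Agent.Lib.Bc.GridO.O36
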