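import Crest.Agent.Lib.Bc.Orbit.O36C90
/-! Row 163: levels 90 to 120 of the grid orbit. -/
set_option maxRecDepth 1000000
namespace Crest.Agent.Lib.Bc.GridO.O36
def w120 : List ℕ := [nat_lit 164,nat_lit 23,nat_lit 277,nat_lit 166,nat_lit 6843,nat_lit 31416,nat_lit 750,nat_lit 33763,nat_lit 225080,nat_lit 310744,nat_lit 2853,nat_lit 97206,nat_lit 496594,nat_lit 1056817,nat_lit 820389,nat_lit 7393,nat_lit 204035,nat_lit 801727,nat_lit 1518732,nat_lit 2049185,nat_lit 1252225,nat_lit 16722,nat_lit 343495,nat_lit 1131805,nat_lit 1867668,nat_lit 2410793,nat_lit 2832253,nat_lit 1618078,nat_lit 29288,nat_lit 507395,nat_lit 1421903,nat_lit 2185259,nat_lit 2702777,nat_lit 3049613,nat_lit 3345453,nat_lit 1794313,nat_lit 49336,nat_lit 674683,nat_lit 1694264,nat_lit 2421450,nat_lit 2986594,nat_lit 3244736,nat_lit 3436660,nat_lit 3665763,nat_lit 1890239,nat_lit 73245,nat_lit 842993,nat_lit 1906181,nat_lit 2671984,nat_lit 3098718,nat_lit 3393041,nat_lit 3582790,nat_lit 3734432,nat_lit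 3845237,nat_lit 1931080,nat_lit 97974,nat_lit 1001067,nat_lit 2121440,nat_lit 2825833,nat_lit 3240420,nat_lit 3501539,nat_lit 3676344,nat_lit 3765973,nat_lit 3934466,nat_lit 3919471,nat_lit 1990284,nat_lit 125897,nat_lit 1158871,nat_lit 2258237,nat_lit 2958581,nat_lit 3337728,nat_lit 3623055,nat_lit 3702332,nat_lit 3822086,nat_lit 3927519,nat_lit 3928209,nat_lit 3971839,nat_lit 2015286,nat_lit 158188,nat_lit 1284098,nat_lit 2391394,nat_lit 3068785,nat_lit 3418245,nat_lit 3689528,nat_lit 3774688,nat_lit 3791156,nat_lit 3978331,nat_lit 3987625,nat_lit 3974983,nat_lit 3971311,nat_lit 683220,nat_lit 186719,nat_lit 1390246,nat_lit 2488573,nat_lit 3127340,nat_lit 3450274,nat_lit 3753758,nat_lit 3820133,nat_lit 3854631,nat_lit 3924510,nat_lit 3938040,nat_lit 2007713,nat_lit 213764,nat_lit 1477391,nat_lit 2581891,nat_lit 3167542,nat_lit 3496640,nat_lit 3769528,nat_lit 3831984,nat_lit 3854792,nat_lit 2003777,nat_lit 236310,nat_lit 1551996,nat_lit 2635933,nat_lit 3205556,nat_lit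 3518404,nat_lit 3799271,nat_lit 1920098,nat_lit 252993,nat_lit 1598992,nat_lit 2673982,nat_lit 3221850,nat_lit 1746993,nat_lit 256229,nat_lit 1616722,nat_lit 1338944,nat_lit 129311]
theorem chk120 : eqF (levelsSF 70 1180591620717411303424 747093134985236840448 186773283746309210112 268435456
    (mkTabSF 36 13 70 K) (mkTabSF 36 13 70 P) ks 30 w90) w120 = true := by decide +kernel
theorem inv120 : Inv 36 13 268435456 ks 120 w120 :=
  Inv.check (m := 90) (k := 30) setup hP hK hB hT1 hT2 inv90 chk120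
end Crest.Agent.Lib.Bc.GridO.O36
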