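import Crest.Agent.Lib.Bc.Orbit.O36C120
/-! Row 163: levels 120 to 150 of the grid orbit. -/
set_option maxRecDepth 1000000
namespace Crest.Agent.Lib.Bc.GridO.O36
def w150 : List ℕ := [nat_lit 148,nat_lit 0,nat_lit 0,nat_lit 0,nat_lit 6,nat_lit 125,nat_lit 2,nat_lit 100,nat_lit 3091,nat_lit 13417,nat_lit 7,nat_lit 769,nat_lit 17345,nat_lit 98404,nat_lit 148377,nat_lit 26,nat_lit 3649,nat_lit 53506,nat_lit 246163,nat_lit 582839,nat_lit 524146,nat_lit 100,nat_lit 11070,nat_lit 125830,nat_lit 445116,nat_lit 935327,nat_lit 1563026,nat_lit 1160543,nat_lit 273,nat_lit 26198,nat_lit 224616,nat_lit 701557,nat_lit 1351544,nat_lit 2047263,nat_lit 2869242,nat_lit 1815296,nat_lit 713,nat_lit 49563,nat_lit 354240,nat_lit 967083,nat_lit 1805482,nat_lit 2568991,nat_lit 3342629,nat_lit 4199702,nat_lit 2426070,nat_lit 1564,nat_lit 81770,nat_lit 497322,nat_lit 1272175,nat_lit 2166244,nat_lit 3063225,nat_lit 3859368,nat_lit 4671877,nat_lit 5382602,nat_lit 2934429,nat_lit 2790,nat_lit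 121255,nat_lit 658842,nat_lit 1548285,nat_lit 2517589,nat_lit 3490940,nat_lit 4318051,nat_lit 5069838,nat_lit 5842485,nat_lit 6299854,nat_lit 3365941,nat_lit 4511,nat_lit 169793,nat_lit 807032,nat_lit 1812881,nat_lit 2827691,nat_lit 3896188,nat_lit 4647007,nat_lit 5432464,nat_lit 6125723,nat_lit 6573119,nat_lit 6962193,nat_lit 3605602,nat_lit 6924,nat_lit 217881,nat_lit 945841,nat_lit 2049564,nat_lit 3094249,nat_lit 4206253,nat_lit 4995321,nat_lit 5615204,nat_lit 6391275,nat_lit 6801030,nat_lit 7133296,nat_lit 7281475,nat_lit 1238328,nat_lit 9661,nat_lit 264749,nat_lit 1065555,nat_lit 2224249,nat_lit 3275113,nat_lit 4465865,nat_lit 5196363,nat_lit 5870474,nat_lit 6455814,nat_lit 6851217,nat_lit 3590969,nat_lit 12673,nat_lit 307117,nat_lit 1184192,nat_lit 2342113,nat_lit 3437584,nat_lit 4613347,nat_lit 5349770,nat_lit 5938743,nat_lit 3306632,nat_lit 15509,nat_lit 345405,nat_lit 1268465,nat_lit 2425074,nat_lit 3520056,nat_lit 4708905,nat_lit 2680845,nat_lit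 17722,nat_lit 369663,nat_lit 1329768,nat_lit 2462597,nat_lit 1765880,nat_lit 17847,nat_lit 374183,nat_lit 671631,nat_lit 8821]
theorem chk150 : eqF (levelsSF 70 1180591620717411303424 747093134985236840448 186773283746309210112 268435456
    (mkTabSF 36 13 70 K) (mkTabSF 36 13 70 P) ks 30 w120) w150 = true := by decide +kernel
theorem inv150 : Inv 36 13 268435456 ks 150 w150 :=
  Inv.check (m := 120) (k := 30) setup hP hK hB hT1 hT2 inv120 chk150
end Crest.Agent.Lib.Bc.GridO.O36
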