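import Crest.Agent.Lib.Bc.Orbit.O36Data
/-! Row 163: levels 0 to 30 of the grid orbit. -/
set_option maxRecDepth 1000000
namespace Crest.Agent.Lib.Bc.GridO.O36
def w30 : List ℕ := [nat_lit 76727796,nat_lit 23437414,nat_lit 1780114,nat_lit 17743053,nat_lit 2056091,nat_lit 573665,nat_lit 13054607,nat_lit 1400807,nat_lit 745388,nat_lit 278005,nat_lit 10442436,nat_lit 1045568,nat_lit 524773,nat_lit 394906,nat_lit 152826,nat_lit 9067941,nat_lit 856678,nat_lit 423745,nat_lit 309308,nat_lit 235181,nat_lit 90845,nat_lit 8251953,nat_lit 726785,nat_lit 358162,nat_lit 262111,nat_lit 203401,nat_lit 153701,nat_lit 70041,nat_lit 7577550,nat_lit 642146,nat_lit 311955,nat_lit 222066,nat_lit 172933,nat_lit 138144,nat_lit 112759,nat_lit 53820,nat_lit 7236008,nat_lit 578389,nat_lit 280299,nat_lit 193890,nat_lit 169308,nat_lit 115733,nat_lit 100841,nat_lit 92284,nat_lit 41533,nat_lit 7094528,nat_lit 530773,nat_lit 251730,nat_lit 182090,nat_lit 145924,nat_lit 112904,nat_lit 95711,nat_lit 86268,nat_lit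 76501,nat_lit 36124,nat_lit 6831861,nat_lit 494215,nat_lit 237251,nat_lit 161508,nat_lit 135785,nat_lit 103071,nat_lit 86405,nat_lit 81391,nat_lit 73844,nat_lit 65415,nat_lit 31462,nat_lit 6816853,nat_lit 474746,nat_lit 221464,nat_lit 149641,nat_lit 128426,nat_lit 98862,nat_lit 80975,nat_lit 79032,nat_lit 70313,nat_lit 62252,nat_lit 63546,nat_lit 30009,nat_lit 6985720,nat_lit 445856,nat_lit 210331,nat_lit 144826,nat_lit 124407,nat_lit 92340,nat_lit 80798,nat_lit 73983,nat_lit 70570,nat_lit 63457,nat_lit 63211,nat_lit 56860,nat_lit 10056,nat_lit 6850719,nat_lit 428418,nat_lit 200407,nat_lit 137963,nat_lit 119763,nat_lit 94947,nat_lit 77085,nat_lit 71492,nat_lit 66133,nat_lit 61260,nat_lit 29500,nat_lit 6933626,nat_lit 414686,nat_lit 194385,nat_lit 134393,nat_lit 115390,nat_lit 91677,nat_lit 76643,nat_lit 70290,nat_lit 33970,nat_lit 7100277,nat_lit 404848,nat_lit 192116,nat_lit 129550,nat_lit 114972,nat_lit 88089,nat_lit 37257,nat_lit 7379518,nat_lit 399988,nat_lit 190688,nat_lit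 131555,nat_lit 57070,nat_lit 7907336,nat_lit 397058,nat_lit 94699,nat_lit 4587434]
theorem chk30 : eqF (levelsSF 70 1180591620717411303424 747093134985236840448 186773283746309210112 268435456
    (mkTabSF 36 13 70 K) (mkTabSF 36 13 70 P) ks 30 w0) w30 = true := by decide +kernel
theorem inv30 : Inv 36 13 268435456 ks 30 w30 :=
  Inv.check (m := 0) (k := 30) setup hP hK hB hT1 hT2 inv0 chk30
end Crest.Agent.Lib.Bc.GridO.O36
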