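import Crest.Agent.Lib.Bc.Orbit.O36C30
/-! Row 163: levels 30 to 60 of the grid orbit. -/
set_option maxRecDepth 1000000
namespace Crest.Agent.Lib.Bc.GridO.O36
def w60 : List ℕ := [nat_lit 26827798,nat_lit 21542683,nat_lit 4466272,nat_lit 17946856,nat_lit 5535640,nat_lit 1660186,nat_lit 13535296,nat_lit 3843510,nat_lit 2154174,nat_lit 787875,nat_lit 11060186,nat_lit 2963357,nat_lit 1542111,nat_lit 1126934,nat_lit 425763,nat_lit 9660521,nat_lit 2448548,nat_lit 1241460,nat_lit 907638,nat_lit 671478,nat_lit 265140,nat_lit 8787296,nat_lit 2088980,nat_lit 1047785,nat_lit 768222,nat_lit 589182,nat_lit 452545,nat_lit 205337,nat_lit 8074943,nat_lit 1847398,nat_lit 914288,nat_lit 658496,nat_lit 505226,nat_lit 409183,nat_lit 336357,nat_lit 157319,nat_lit 7656309,nat_lit 1660130,nat_lit 821992,nat_lit 578416,nat_lit 485964,nat_lit 350536,nat_lit 306074,nat_lit 273907,nat_lit 124467,nat_lit 7405074,nat_lit 1526872,nat_lit 741835,nat_lit 544478,nat_lit 422980,nat_lit 333068,nat_lit 289880,nat_lit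 257338,nat_lit 229245,nat_lit 109408,nat_lit 7118159,nat_lit 1420494,nat_lit 697918,nat_lit 488253,nat_lit 396703,nat_lit 307249,nat_lit 263036,nat_lit 243410,nat_lit 219606,nat_lit 198150,nat_lit 94919,nat_lit 6994355,nat_lit 1359225,nat_lit 651658,nat_lit 454445,nat_lit 374480,nat_lit 294563,nat_lit 247525,nat_lit 233519,nat_lit 210473,nat_lit 189862,nat_lit 188359,nat_lit 90090,nat_lit 7015016,nat_lit 1280484,nat_lit 619932,nat_lit 440102,nat_lit 362824,nat_lit 276911,nat_lit 242708,nat_lit 221240,nat_lit 209566,nat_lit 190402,nat_lit 188921,nat_lit 174122,nat_lit 30118,nat_lit 6918080,nat_lit 1232439,nat_lit 593182,nat_lit 420179,nat_lit 347758,nat_lit 278341,nat_lit 235250,nat_lit 214610,nat_lit 198814,nat_lit 184333,nat_lit 89258,nat_lit 6959485,nat_lit 1195490,nat_lit 576263,nat_lit 407759,nat_lit 338216,nat_lit 269871,nat_lit 232134,nat_lit 213125,nat_lit 101698,nat_lit 7050545,nat_lit 1169323,nat_lit 565379,nat_lit 395191,nat_lit 336227,nat_lit 263502,nat_lit 114677,nat_lit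 7173441,nat_lit 1153277,nat_lit 561368,nat_lit 399401,nat_lit 166895,nat_lit 7316977,nat_lit 1140398,nat_lit 278941,nat_lit 3780876]
theorem chk60 : eqF (levelsSF 70 1180591620717411303424 747093134985236840448 186773283746309210112 268435456
    (mkTabSF 36 13 70 K) (mkTabSF 36 13 70 P) ks 30 w30) w60 = true := by decide +kernel
theorem inv60 : Inv 36 13 268435456 ks 60 w60 :=
  Inv.check (m := 30) (k := 30) setup hP hK hB hT1 hT2 inv30 chk60
end Crest.Agent.Lib.Bc.GridO.O36
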