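import Crest.Agent.Lib.Bc.Orbit.O36C60
/-! Row 163: levels 60 to 90 of the grid orbit. -/
set_option maxRecDepth 1000000
namespace Crest.Agent.Lib.Bc.GridO.O36
def w90 : List ℕ := [nat_lit 262219,nat_lit 1039112,nat_lit 1682254,nat_lit 2071015,nat_lit 4646976,nat_lit 2652360,nat_lit 2338557,nat_lit 4814194,nat_lit 4606606,nat_lit 1925604,nat_lit 2617037,nat_lit 4799307,nat_lit 4131173,nat_lit 3259159,nat_lit 1378495,nat_lit 2800888,nat_lit 4641309,nat_lit 3687927,nat_lit 2956403,nat_lit 2388896,nat_lit 1060903,nat_lit 2952871,nat_lit 4448723,nat_lit 3358605,nat_lit 2654786,nat_lit 2165650,nat_lit 1886890,nat_lit 877447,nat_lit 3037150,nat_lit 4270993,nat_lit 3112768,nat_lit 2414759,nat_lit 1970118,nat_lit 1730549,nat_lit 1541628,nat_lit 713316,nat_lit 3149442,nat_lit 4081735,nat_lit 2906137,nat_lit 2250150,nat_lit 1874310,nat_lit 1598705,nat_lit 1433401,nat_lit 1304192,nat_lit 613741,nat_lit 3230690,nat_lit 3948126,nat_lit 2720218,nat_lit 2164529,nat_lit 1726078,nat_lit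 1484722,nat_lit 1374356,nat_lit 1241548,nat_lit 1151694,nat_lit 553512,nat_lit 3280449,nat_lit 3820944,nat_lit 2620889,nat_lit 2026262,nat_lit 1659055,nat_lit 1419822,nat_lit 1292094,nat_lit 1184963,nat_lit 1109457,nat_lit 1041259,nat_lit 508107,nat_lit 3344616,nat_lit 3732669,nat_lit 2487316,nat_lit 1936198,nat_lit 1586371,nat_lit 1374196,nat_lit 1237133,nat_lit 1146895,nat_lit 1069394,nat_lit 1007520,nat_lit 982122,nat_lit 481676,nat_lit 3447544,nat_lit 3622181,nat_lit 2421906,nat_lit 1880610,nat_lit 1550656,nat_lit 1333470,nat_lit 1208940,nat_lit 1104310,nat_lit 1061579,nat_lit 1008585,nat_lit 969372,nat_lit 946346,nat_lit 162855,nat_lit 3482716,nat_lit 3551040,nat_lit 2353428,nat_lit 1833104,nat_lit 1497717,nat_lit 1312772,nat_lit 1189084,nat_lit 1088355,nat_lit 1021669,nat_lit 983019,nat_lit 480580,nat_lit 3535473,nat_lit 3498785,nat_lit 2302362,nat_lit 1789745,nat_lit 1470019,nat_lit 1289458,nat_lit 1170655,nat_lit 1078401,nat_lit 520252,nat_lit 3577986,nat_lit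 3463475,nat_lit 2270880,nat_lit 1772788,nat_lit 1469951,nat_lit 1280167,nat_lit 586352,nat_lit 3614480,nat_lit 3434807,nat_lit 2253129,nat_lit 1763519,nat_lit 723607,nat_lit 3646502,nat_lit 3402490,nat_lit 1123290,nat_lit 1831705]
theorem chk90 : eqF (levelsSF 70 1180591620717411303424 747093134985236840448 186773283746309210112 268435456
    (mkTabSF 36 13 70 K) (mkTabSF 36 13 70 P) ks 30 w60) w90 = true := by decide +kernel
theorem inv90 : Inv 36 13 268435456 ks 90 w90 :=
  Inv.check (m := 60) (k := 30) setup hP hK hB hT1 hT2 inv60 chk90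
end Crest.Agent.Lib.Bc.GridO.O36
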