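import Crest.Agent.Lib.Bc.GridExit
/-! Row 163: the data of a grid orbit at `b = 4`, `λ = -1/2`: grid size 36, weights in units of `2^-28`. -/
set_option maxRecDepth 1000000
namespace Crest.Agent.Lib.Bc.GridO.O36
def ks : List ℕ := [nat_lit 13,nat_lit 14,nat_lit 26,nat_lit 27,nat_lit 28,nat_lit 39,nat_lit 40,nat_lit 41,nat_lit 42,nat_lit 52,nat_lit 53,nat_lit 54,nat_lit 55,nat_lit 56,nat_lit 65,nat_lit 66,nat_lit 67,nat_lit 68,nat_lit 69,nat_lit 70,nat_lit 78,nat_lit 79,nat_lit 80,nat_lit 81,nat_lit 82,nat_lit 83,nat_lit 84,nat_lit 91,nat_lit 92,nat_lit 93,nat_lit 94,nat_lit 95,nat_lit 96,nat_lit 97,nat_lit 98,nat_lit 104,nat_lit 105,nat_lit 106,nat_lit 107,nat_lit 108,nat_lit 109,nat_lit 110,nat_lit 111,nat_lit 112,nat_lit 117,nat_lit 118,nat_lit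 119,nat_lit 120,nat_lit 121,nat_lit 122,nat_lit 123,nat_lit 124,nat_lit 125,nat_lit 126,nat_lit 130,nat_lit 131,nat_lit 132,nat_lit 133,nat_lit 134,nat_lit 135,nat_lit 136,nat_lit 137,nat_lit 138,nat_lit 139,nat_lit 140,nat_lit 143,nat_lit 144,nat_lit 145,nat_lit 146,nat_lit 147,nat_lit 148,nat_lit 149,nat_lit 150,nat_lit 151,nat_lit 152,nat_lit 153,nat_lit 154,nat_lit 156,nat_lit 157,nat_lit 158,nat_lit 159,nat_lit 160,nat_lit 161,nat_lit 162,nat_lit 163,nat_lit 164,nat_lit 165,nat_lit 166,nat_lit 167,nat_lit 168,nat_lit 169,nat_lit 170,nat_lit 171,nat_lit 172,nat_lit 173,nat_lit 174,nat_lit 175,nat_lit 176,nat_lit 177,nat_lit 178,nat_lit 179,nat_lit 182,nat_lit 183,nat_lit 184,nat_lit 185,nat_lit 186,nat_lit 187,nat_lit 188,nat_lit 189,nat_lit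 190,nat_lit 195,nat_lit 196,nat_lit 197,nat_lit 198,nat_lit 199,nat_lit 200,nat_lit 201,nat_lit 208,nat_lit 209,nat_lit 210,nat_lit 211,nat_lit 212,nat_lit 221,nat_lit 222,nat_lit 223,nat_lit 234]
def P : List Pt := [⟨nat_lit 36,nat_lit 0,nat_lit 0⟩,⟨nat_lit 35,nat_lit 1,nat_lit 0⟩,⟨nat_lit 34,nat_lit 1,nat_lit 1⟩,⟨nat_lit 34,nat_lit 2,nat_lit 0⟩,⟨nat_lit 33,nat_lit 2,nat_lit 1⟩,⟨nat_lit 32,nat_lit 2,nat_lit 2⟩,⟨nat_lit 33,nat_lit 3,nat_lit 0⟩,⟨nat_lit 32,nat_lit 3,nat_lit 1⟩,⟨nat_lit 31,nat_lit 3,nat_lit 2⟩,⟨nat_lit 30,nat_lit 3,nat_lit 3⟩,⟨nat_lit 32,nat_lit 4,nat_lit 0⟩,⟨nat_lit 31,nat_lit 4,nat_lit 1⟩,⟨nat_lit 30,nat_lit 4,nat_lit 2⟩,⟨nat_lit 29,nat_lit 4,nat_lit 3⟩,⟨nat_lit 28,nat_lit 4,nat_lit 4⟩,⟨nat_lit 31,nat_lit 5,nat_lit 0⟩,⟨nat_lit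 30,nat_lit 5,nat_lit 1⟩,⟨nat_lit 29,nat_lit 5,nat_lit 2⟩,⟨nat_lit 28,nat_lit 5,nat_lit 3⟩,⟨nat_lit 27,nat_lit 5,nat_lit 4⟩,⟨nat_lit 26,nat_lit 5,nat_lit 5⟩,⟨nat_lit 30,nat_lit 6,nat_lit 0⟩,⟨nat_lit 29,nat_lit 6,nat_lit 1⟩,⟨nat_lit 28,nat_lit 6,nat_lit 2⟩,⟨nat_lit 27,nat_lit 6,nat_lit 3⟩,⟨nat_lit 26,nat_lit 6,nat_lit 4⟩,⟨nat_lit 25,nat_lit 6,nat_lit 5⟩,⟨nat_lit 24,nat_lit 6,nat_lit 6⟩,⟨nat_lit 29,nat_lit 7,nat_lit 0⟩,⟨nat_lit 28,nat_lit 7,nat_lit 1⟩,⟨nat_lit 27,nat_lit 7,nat_lit 2⟩,⟨nat_lit 26,nat_lit 7,nat_lit 3⟩,⟨nat_lit 25,nat_lit 7,nat_lit 4⟩,⟨nat_lit 24,nat_lit 7,nat_lit 5⟩,⟨nat_lit 23,nat_lit 7,nat_lit 6⟩,⟨nat_lit 22,nat_lit 7,nat_lit 7⟩,⟨nat_lit 28,nat_lit 8,nat_lit 0⟩,⟨nat_lit 27,nat_lit 8,nat_lit 1⟩,⟨nat_lit 26,nat_lit 8,nat_lit 2⟩,⟨nat_lit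 25,nat_lit 8,nat_lit 3⟩,⟨nat_lit 24,nat_lit 8,nat_lit 4⟩,⟨nat_lit 23,nat_lit 8,nat_lit 5⟩,⟨nat_lit 22,nat_lit 8,nat_lit 6⟩,⟨nat_lit 21,nat_lit 8,nat_lit 7⟩,⟨nat_lit 20,nat_lit 8,nat_lit 8⟩,⟨nat_lit 27,nat_lit 9,nat_lit 0⟩,⟨nat_lit 26,nat_lit 9,nat_lit 1⟩,⟨nat_lit 25,nat_lit 9,nat_lit 2⟩,⟨nat_lit 24,nat_lit 9,nat_lit 3⟩,⟨nat_lit 23,nat_lit 9,nat_lit 4⟩,⟨nat_lit 22,nat_lit 9,nat_lit 5⟩,⟨nat_lit 21,nat_lit 9,nat_lit 6⟩,⟨nat_lit 20,nat_lit 9,nat_lit 7⟩,⟨nat_lit 19,nat_lit 9,nat_lit 8⟩,⟨nat_lit 18,nat_lit 9,nat_lit 9⟩,⟨nat_lit 26,nat_lit 10,nat_lit 0⟩,⟨nat_lit 25,nat_lit 10,nat_lit 1⟩,⟨nat_lit 24,nat_lit 10,nat_lit 2⟩,⟨nat_lit 23,nat_lit 10,nat_lit 3⟩,⟨nat_lit 22,nat_lit 10,nat_lit 4⟩,⟨nat_lit 21,nat_lit 10,nat_lit 5⟩,⟨nat_lit 20,nat_lit 10,nat_lit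 6⟩,⟨nat_lit 19,nat_lit 10,nat_lit 7⟩,⟨nat_lit 18,nat_lit 10,nat_lit 8⟩,⟨nat_lit 17,nat_lit 10,nat_lit 9⟩,⟨nat_lit 16,nat_lit 10,nat_lit 10⟩,⟨nat_lit 25,nat_lit 11,nat_lit 0⟩,⟨nat_lit 24,nat_lit 11,nat_lit 1⟩,⟨nat_lit 23,nat_lit 11,nat_lit 2⟩,⟨nat_lit 22,nat_lit 11,nat_lit 3⟩,⟨nat_lit 21,nat_lit 11,nat_lit 4⟩,⟨nat_lit 20,nat_lit 11,nat_lit 5⟩,⟨nat_lit 19,nat_lit 11,nat_lit 6⟩,⟨nat_lit 18,nat_lit 11,nat_lit 7⟩,⟨nat_lit 17,nat_lit 11,nat_lit 8⟩,⟨nat_lit 16,nat_lit 11,nat_lit 9⟩,⟨nat_lit 15,nat_lit 11,nat_lit 10⟩,⟨nat_lit 14,nat_lit 11,nat_lit 11⟩,⟨nat_lit 24,nat_lit 12,nat_lit 0⟩,⟨nat_lit 23,nat_lit 12,nat_lit 1⟩,⟨nat_lit 22,nat_lit 12,nat_lit 2⟩,⟨nat_lit 21,nat_lit 12,nat_lit 3⟩,⟨nat_lit 20,nat_lit 12,nat_lit 4⟩,⟨nat_lit 19,nat_lit 12,nat_lit 5⟩,⟨nat_lit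 18,nat_lit 12,nat_lit 6⟩,⟨nat_lit 17,nat_lit 12,nat_lit 7⟩,⟨nat_lit 16,nat_lit 12,nat_lit 8⟩,⟨nat_lit 15,nat_lit 12,nat_lit 9⟩,⟨nat_lit 14,nat_lit 12,nat_lit 10⟩,⟨nat_lit 13,nat_lit 12,nat_lit 11⟩,⟨nat_lit 12,nat_lit 12,nat_lit 12⟩,⟨nat_lit 23,nat_lit 13,nat_lit 0⟩,⟨nat_lit 22,nat_lit 13,nat_lit 1⟩,⟨nat_lit 21,nat_lit 13,nat_lit 2⟩,⟨nat_lit 20,nat_lit 13,nat_lit 3⟩,⟨nat_lit 19,nat_lit 13,nat_lit 4⟩,⟨nat_lit 18,nat_lit 13,nat_lit 5⟩,⟨nat_lit 17,nat_lit 13,nat_lit 6⟩,⟨nat_lit 16,nat_lit 13,nat_lit 7⟩,⟨nat_lit 15,nat_lit 13,nat_lit 8⟩,⟨nat_lit 14,nat_lit 13,nat_lit 9⟩,⟨nat_lit 13,nat_lit 13,nat_lit 10⟩,⟨nat_lit 22,nat_lit 14,nat_lit 0⟩,⟨nat_lit 21,nat_lit 14,nat_lit 1⟩,⟨nat_lit 20,nat_lit 14,nat_lit 2⟩,⟨nat_lit 19,nat_lit 14,nat_lit 3⟩,⟨nat_lit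 18,nat_lit 14,nat_lit 4⟩,⟨nat_lit 17,nat_lit 14,nat_lit 5⟩,⟨nat_lit 16,nat_lit 14,nat_lit 6⟩,⟨nat_lit 15,nat_lit 14,nat_lit 7⟩,⟨nat_lit 14,nat_lit 14,nat_lit 8⟩,⟨nat_lit 21,nat_lit 15,nat_lit 0⟩,⟨nat_lit 20,nat_lit 15,nat_lit 1⟩,⟨nat_lit 19,nat_lit 15,nat_lit 2⟩,⟨nat_lit 18,nat_lit 15,nat_lit 3⟩,⟨nat_lit 17,nat_lit 15,nat_lit 4⟩,⟨nat_lit 16,nat_lit 15,nat_lit 5⟩,⟨nat_lit 15,nat_lit 15,nat_lit 6⟩,⟨nat_lit 20,nat_lit 16,nat_lit 0⟩,⟨nat_lit 19,nat_lit 16,nat_lit 1⟩,⟨nat_lit 18,nat_lit 16,nat_lit 2⟩,⟨nat_lit 17,nat_lit 16,nat_lit 3⟩,⟨nat_lit 16,nat_lit 16,nat_lit 4⟩,⟨nat_lit 19,nat_lit 17,nat_lit 0⟩,⟨nat_lit 18,nat_lit 17,nat_lit 1⟩,⟨nat_lit 17,nat_lit 17,nat_lit 2⟩,⟨nat_lit 18,nat_lit 18,nat_lit 0⟩]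
def K : List Pt := [⟨nat_lit 0,nat_lit 36,nat_lit 36⟩,⟨nat_lit 1,nat_lit 35,nat_lit 36⟩,⟨nat_lit 2,nat_lit 35,nat_lit 35⟩,⟨nat_lit 2,nat_lit 34,nat_lit 36⟩,⟨nat_lit 3,nat_lit 34,nat_lit 35⟩,⟨nat_lit 4,nat_lit 34,nat_lit 34⟩,⟨nat_lit 3,nat_lit 33,nat_lit 36⟩,⟨nat_lit 4,nat_lit 33,nat_lit 35⟩,⟨nat_lit 5,nat_lit 33,nat_lit 34⟩,⟨nat_lit 6,nat_lit 33,nat_lit 33⟩,⟨nat_lit 4,nat_lit 32,nat_lit 36⟩,⟨nat_lit 5,nat_lit 32,nat_lit 35⟩,⟨nat_lit 6,nat_lit 32,nat_lit 34⟩,⟨nat_lit 7,nat_lit 32,nat_lit 33⟩,⟨nat_lit 8,nat_lit 32,nat_lit 32⟩,⟨nat_lit 5,nat_lit 31,nat_lit 36⟩,⟨nat_lit 6,nat_lit 31,nat_lit 35⟩,⟨nat_lit 7,nat_lit 31,nat_lit 34⟩,⟨nat_lit 8,nat_lit 31,nat_lit 33⟩,⟨nat_lit 9,nat_lit 31,nat_lit 32⟩,⟨nat_lit 10,nat_lit 31,nat_lit 31⟩,⟨nat_lit 6,nat_lit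 30,nat_lit 36⟩,⟨nat_lit 7,nat_lit 30,nat_lit 35⟩,⟨nat_lit 8,nat_lit 30,nat_lit 34⟩,⟨nat_lit 9,nat_lit 30,nat_lit 33⟩,⟨nat_lit 10,nat_lit 30,nat_lit 32⟩,⟨nat_lit 11,nat_lit 30,nat_lit 31⟩,⟨nat_lit 12,nat_lit 30,nat_lit 30⟩,⟨nat_lit 7,nat_lit 29,nat_lit 36⟩,⟨nat_lit 8,nat_lit 29,nat_lit 35⟩,⟨nat_lit 9,nat_lit 29,nat_lit 34⟩,⟨nat_lit 10,nat_lit 29,nat_lit 33⟩,⟨nat_lit 11,nat_lit 29,nat_lit 32⟩,⟨nat_lit 12,nat_lit 29,nat_lit 31⟩,⟨nat_lit 13,nat_lit 29,nat_lit 30⟩,⟨nat_lit 14,nat_lit 29,nat_lit 29⟩,⟨nat_lit 8,nat_lit 28,nat_lit 36⟩,⟨nat_lit 9,nat_lit 28,nat_lit 35⟩,⟨nat_lit 10,nat_lit 28,nat_lit 34⟩,⟨nat_lit 11,nat_lit 28,nat_lit 33⟩,⟨nat_lit 12,nat_lit 28,nat_lit 32⟩,⟨nat_lit 13,nat_lit 28,nat_lit 31⟩,⟨nat_lit 14,nat_lit 28,nat_lit 30⟩,⟨nat_lit 15,nat_lit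 28,nat_lit 29⟩,⟨nat_lit 16,nat_lit 28,nat_lit 28⟩,⟨nat_lit 9,nat_lit 27,nat_lit 36⟩,⟨nat_lit 10,nat_lit 27,nat_lit 35⟩,⟨nat_lit 11,nat_lit 27,nat_lit 34⟩,⟨nat_lit 12,nat_lit 27,nat_lit 33⟩,⟨nat_lit 13,nat_lit 27,nat_lit 32⟩,⟨nat_lit 14,nat_lit 27,nat_lit 31⟩,⟨nat_lit 15,nat_lit 27,nat_lit 30⟩,⟨nat_lit 16,nat_lit 27,nat_lit 29⟩,⟨nat_lit 17,nat_lit 27,nat_lit 28⟩,⟨nat_lit 18,nat_lit 27,nat_lit 27⟩,⟨nat_lit 10,nat_lit 26,nat_lit 36⟩,⟨nat_lit 11,nat_lit 26,nat_lit 35⟩,⟨nat_lit 12,nat_lit 26,nat_lit 34⟩,⟨nat_lit 13,nat_lit 26,nat_lit 33⟩,⟨nat_lit 14,nat_lit 26,nat_lit 32⟩,⟨nat_lit 15,nat_lit 26,nat_lit 31⟩,⟨nat_lit 16,nat_lit 26,nat_lit 30⟩,⟨nat_lit 17,nat_lit 26,nat_lit 29⟩,⟨nat_lit 18,nat_lit 26,nat_lit 28⟩,⟨nat_lit 19,nat_lit 26,nat_lit 27⟩,⟨nat_lit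 20,nat_lit 26,nat_lit 26⟩,⟨nat_lit 11,nat_lit 25,nat_lit 36⟩,⟨nat_lit 12,nat_lit 25,nat_lit 35⟩,⟨nat_lit 13,nat_lit 25,nat_lit 34⟩,⟨nat_lit 14,nat_lit 25,nat_lit 33⟩,⟨nat_lit 15,nat_lit 25,nat_lit 32⟩,⟨nat_lit 16,nat_lit 25,nat_lit 31⟩,⟨nat_lit 17,nat_lit 25,nat_lit 30⟩,⟨nat_lit 18,nat_lit 25,nat_lit 29⟩,⟨nat_lit 19,nat_lit 25,nat_lit 28⟩,⟨nat_lit 20,nat_lit 25,nat_lit 27⟩,⟨nat_lit 21,nat_lit 25,nat_lit 26⟩,⟨nat_lit 22,nat_lit 25,nat_lit 25⟩,⟨nat_lit 12,nat_lit 24,nat_lit 36⟩,⟨nat_lit 13,nat_lit 24,nat_lit 35⟩,⟨nat_lit 14,nat_lit 24,nat_lit 34⟩,⟨nat_lit 15,nat_lit 24,nat_lit 33⟩,⟨nat_lit 16,nat_lit 24,nat_lit 32⟩,⟨nat_lit 17,nat_lit 24,nat_lit 31⟩,⟨nat_lit 18,nat_lit 24,nat_lit 30⟩,⟨nat_lit 19,nat_lit 24,nat_lit 29⟩,⟨nat_lit 20,nat_lit 24,nat_lit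 28⟩,⟨nat_lit 21,nat_lit 24,nat_lit 27⟩,⟨nat_lit 22,nat_lit 24,nat_lit 26⟩,⟨nat_lit 23,nat_lit 24,nat_lit 25⟩,⟨nat_lit 24,nat_lit 24,nat_lit 24⟩,⟨nat_lit 13,nat_lit 23,nat_lit 36⟩,⟨nat_lit 14,nat_lit 23,nat_lit 35⟩,⟨nat_lit 15,nat_lit 23,nat_lit 34⟩,⟨nat_lit 16,nat_lit 23,nat_lit 33⟩,⟨nat_lit 17,nat_lit 23,nat_lit 32⟩,⟨nat_lit 18,nat_lit 23,nat_lit 31⟩,⟨nat_lit 19,nat_lit 23,nat_lit 30⟩,⟨nat_lit 20,nat_lit 23,nat_lit 29⟩,⟨nat_lit 21,nat_lit 23,nat_lit 28⟩,⟨nat_lit 22,nat_lit 23,nat_lit 27⟩,⟨nat_lit 23,nat_lit 23,nat_lit 26⟩,⟨nat_lit 14,nat_lit 22,nat_lit 36⟩,⟨nat_lit 15,nat_lit 22,nat_lit 35⟩,⟨nat_lit 16,nat_lit 22,nat_lit 34⟩,⟨nat_lit 17,nat_lit 22,nat_lit 33⟩,⟨nat_lit 18,nat_lit 22,nat_lit 32⟩,⟨nat_lit 19,nat_lit 22,nat_lit 31⟩,⟨nat_lit 20,nat_lit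 22,nat_lit 30⟩,⟨nat_lit 21,nat_lit 22,nat_lit 29⟩,⟨nat_lit 22,nat_lit 22,nat_lit 28⟩,⟨nat_lit 15,nat_lit 21,nat_lit 36⟩,⟨nat_lit 16,nat_lit 21,nat_lit 35⟩,⟨nat_lit 17,nat_lit 21,nat_lit 34⟩,⟨nat_lit 18,nat_lit 21,nat_lit 33⟩,⟨nat_lit 19,nat_lit 21,nat_lit 32⟩,⟨nat_lit 20,nat_lit 21,nat_lit 31⟩,⟨nat_lit 21,nat_lit 21,nat_lit 30⟩,⟨nat_lit 16,nat_lit 20,nat_lit 36⟩,⟨nat_lit 17,nat_lit 20,nat_lit 35⟩,⟨nat_lit 18,nat_lit 20,nat_lit 34⟩,⟨nat_lit 19,nat_lit 20,nat_lit 33⟩,⟨nat_lit 20,nat_lit 20,nat_lit 32⟩,⟨nat_lit 17,nat_lit 19,nat_lit 36⟩,⟨nat_lit 18,nat_lit 19,nat_lit 35⟩,⟨nat_lit 19,nat_lit 19,nat_lit 34⟩,⟨nat_lit 18,nat_lit 18,nat_lit 36⟩]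
/-- the data are what they should be -/
def eqPt (x y : Pt) : Bool := Nat.beq x.a y.a && Nat.beq x.b y.b && Nat.beq x.c y.c
def eqPts : List Pt → List Pt → Bool
  | [], [] => true
  | x :: xs, y :: ys => eqPt x y && eqPts xs ys
  | _, _ => false
theorem eqPts_eq : ∀ a b : List Pt, eqPts a b = true → a = b := by
  intro a
  induction a with
  | nil =>
    intro b h
    cases b with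
    | nil => rfl
    | cons _ _ => simp [eqPts] at h
  | cons x a ih =>
    intro b h
    cases b with
    | nil => simp [eqPts] at h
    | cons y b =>
      simp only [eqPts, eqPt, Bool.and_eq_true] at h
      obtain ⟨⟨⟨h1, h2⟩, h3⟩, h4⟩ := h
      have e : x = y := by
        have e1 := Nat.eq_of_beq_eq_true h1
        have e2 := Nat.eq_of_beq_eq_true h2
        have e3 := Nat.eq_of_beq_eq_true h3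
        cases x; cases y
        dsimp only at e1 e2 e3
        subst e1 e2 e3
        rfl
      rw [e, ih b h4]
theorem hP0 : eqPts P (ptsOf 36 13 ks) = true := by decide +kernel
theorem hK0 : eqPts K (P.map (tiltPt 36)) = true := by decide +kernel
theorem hP : P = ptsOf 36 13 ks := eqPts_eq _ _ hP0
theorem hK : K = P.map (tiltPt 36) := eqPts_eq _ _ hK0
theorem hnodup : ks.Nodup := by decide +kernel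
theorem hvalid : ∀ k ∈ ks, k < 247 ∧ Valid 36 13 k := by
  have : ∀ k ∈ ks, k < 247 ∧ k / 13 + k % 13 ≤ 36 := by decide +kernel
  exact this
theorem setup : Setup 36 13 70 247 268435456 ks :=
  ⟨by norm_num, by norm_num, by norm_num, by norm_num, by norm_num, hnodup, hvalid⟩
theorem hB : 1180591620717411303424 = 2 ^ 70 := by norm_num
theorem hT1 : 747093134985236840448 = 2 * (2 * 36) * (2 * 36) * 268435456 * 268435456 := by norm_num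
theorem hT2 : 186773283746309210112 = 2 * 36 * 36 * 268435456 * 268435456 := by norm_num
def w0 : List ℕ := [nat_lit 268435456,nat_lit 0,nat_lit 0,nat_lit 0,nat_lit 0,nat_lit 0,nat_lit 0,nat_lit 0,nat_lit 0,nat_lit 0,nat_lit 0,nat_lit 0,nat_lit 0,nat_lit 0,nat_lit 0,nat_lit 0,nat_lit 0,nat_lit 0,nat_lit 0,nat_lit 0,nat_lit 0,nat_lit 0,nat_lit 0,nat_lit 0,nat_lit 0,nat_lit 0,nat_lit 0,nat_lit 0,nat_lit 0,nat_lit 0,nat_lit 0,nat_lit 0,nat_lit 0,nat_lit 0,nat_lit 0,nat_lit 0,nat_lit 0,nat_lit 0,nat_lit 0,nat_lit 0,nat_lit 0,nat_lit 0,nat_lit 0,nat_lit 0,nat_lit 0,nat_lit 0,nat_lit 0,nat_lit 0,nat_lit 0,nat_lit 0,nat_lit 0,nat_lit 0,nat_lit 0,nat_lit 0,nat_lit 0,nat_lit 0,nat_lit 0,nat_lit 0,nat_lit 0,nat_lit 0,nat_lit 0,nat_lit 0,nat_lit 0,nat_lit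 0,nat_lit 0,nat_lit 0,nat_lit 0,nat_lit 0,nat_lit 0,nat_lit 0,nat_lit 0,nat_lit 0,nat_lit 0,nat_lit 0,nat_lit 0,nat_lit 0,nat_lit 0,nat_lit 0,nat_lit 0,nat_lit 0,nat_lit 0,nat_lit 0,nat_lit 0,nat_lit 0,nat_lit 0,nat_lit 0,nat_lit 0,nat_lit 0,nat_lit 0,nat_lit 0,nat_lit 0,nat_lit 0,nat_lit 0,nat_lit 0,nat_lit 0,nat_lit 0,nat_lit 0,nat_lit 0,nat_lit 0,nat_lit 0,nat_lit 0,nat_lit 0,nat_lit 0,nat_lit 0,nat_lit 0,nat_lit 0,nat_lit 0,nat_lit 0,nat_lit 0,nat_lit 0,nat_lit 0,nat_lit 0,nat_lit 0,nat_lit 0,nat_lit 0,nat_lit 0,nat_lit 0,nat_lit 0,nat_lit 0,nat_lit 0,nat_lit 0,nat_lit 0,nat_lit 0,nat_lit 0,nat_lit 0,nat_lit 0,nat_lit 0]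
theorem h0 : w0 = 268435456 :: ks.map fun _ => 0 := by decide +kernel
theorem inv0 : Inv 36 13 268435456 ks 0 w0 := by
  rw [h0]
  exact Inv.zero setup
end Crest.Agent.Lib.Bc.GridO.O36
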